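import Vale.Agent.P258.H78.Defs
import Vale.Agent.P258.H331.Main

set_option linter.all false

/-!
Homomorphisms of the groups of `twistedRelators` to a finite group whose exponent divides all the
numbers of twists.
-/

namespace Vale.Agent.P258

/-- The relations satisfied by an assignment of group elements to the arcs. -/
theorem sat_twisted_iff {G : Type*} [Group G] (D J : Diagram) (C : Set (Fin D.n))
    (a b : Fin D.n → ℤ) (k e : Fin D.n) (j : Fin J.n) (s f p : ℤ)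
    (σ : Fin D.n ⊕ Fin J.n → G) :
    (∀ r ∈ twistedRelators D J C a b k e j s f p, FreeGroup.lift σ r = 1) ↔
      D.IsCol (σ ∘ Sum.inl) ∧ J.IsCol (σ ∘ Sum.inr) ∧
      (∀ c ∈ C, σ (Sum.inl c) ^ a c * D.lonVal (σ ∘ Sum.inl) c ^ b c = 1) ∧
      D.lonVal (σ ∘ Sum.inl) e * σ (Sum.inl e) ^ s = σ (Sum.inr j) ∧
      σ (Sum.inl e) = σ (Sum.inr j) ^ f * J.lonVal (σ ∘ Sum.inr) j ∧
      σ (Sum.inl k) ^ p * D.lonVal (σ ∘ Sum.inl) k = 1 := by
  have h3 : FreeGroup.lift σ (wordP D J (D.longitude e * FreeGroup.of e ^ s) *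
      (wordJ D J (FreeGroup.of j))⁻¹) = 1 ↔
      D.lonVal (σ ∘ Sum.inl) e * σ (Sum.inl e) ^ s = σ (Sum.inr j) := by
    rw [map_mul, map_inv, lift_wordP, lift_wordJ, map_mul, map_zpow, Diagram.lift_longitude,
      FreeGroup.lift_apply_of, FreeGroup.lift_apply_of, mul_inv_eq_one]
    rfl
  have h4 : FreeGroup.lift σ (wordP D J (FreeGroup.of e) *
      (wordJ D J (J.slopeWord j f))⁻¹) = 1 ↔
      σ (Sum.inl e) = σ (Sum.inr j) ^ f * J.lonVal (σ ∘ Sum.inr) j := by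
    rw [map_mul, map_inv, lift_wordP, lift_wordJ, lift_slopeWord, FreeGroup.lift_apply_of,
      mul_inv_eq_one]
    rfl
  have h5 : FreeGroup.lift σ (wordP D J (D.slopeWord k p)) = 1 ↔
      σ (Sum.inl k) ^ p * D.lonVal (σ ∘ Sum.inl) k = 1 := by
    rw [lift_wordP, lift_slopeWord]
    rfl
  have h6 : ∀ c : Fin D.n,
      FreeGroup.lift σ (wordP D J (FreeGroup.of c ^ a c * D.longitude c ^ b c)) = 1 ↔
      σ (Sum.inl c) ^ a c * D.lonVal (σ ∘ Sum.inl) c ^ b c = 1 := by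
    intro c
    rw [lift_wordP, map_mul, map_zpow, map_zpow, Diagram.lift_longitude,
      FreeGroup.lift_apply_of]
    rfl
  constructor
  · intro h
    refine ⟨fun i => ?_, fun i => ?_, fun c hc => (h6 c).1 (h _ ?_), h3.1 (h _ ?_),
      h4.1 (h _ ?_), h5.1 (h _ ?_)⟩
    · have := h (wordP D J (D.wirtinger i)) (Or.inl (Or.inl (Or.inl ⟨i, rfl⟩)))
      rw [lift_wordP] at this
      exact (D.lift_wirtinger _ i).1 this
    · have := h (wordJ D J (J.wirtinger i)) (Or.inl (Or.inl (Or.inr ⟨i, rfl⟩)))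
      rw [lift_wordJ] at this
      exact (J.lift_wirtinger _ i).1 this
    · exact Or.inl (Or.inr ⟨c, hc, rfl⟩)
    · exact Or.inr (Or.inl rfl)
    · exact Or.inr (Or.inr (Or.inl rfl))
    · exact Or.inr (Or.inr (Or.inr rfl))
  · rintro ⟨g1, g2, gc, g3, g4, g5⟩ r hr
    rcases hr with ((⟨i, rfl⟩ | ⟨i, rfl⟩) | ⟨c, hc, rfl⟩) | (rfl | rfl | rfl)
    · simp only
      rw [lift_wordP]
      exact (D.lift_wirtinger _ i).2 (g1 i)
    · simp only
      rw [lift_wordJ]
      exact (J.lift_wirtinger _ i).2 (g2 i)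
    · exact (h6 c).2 (gc c hc)
    · exact h3.2 g3
    · exact h4.2 g4
    · exact h5.2 g5

/-- Assignments for a sublink are homomorphisms of the sublink group. -/
theorem exists_hom_of_sublink {G : Type*} [Group G] (D : Diagram) (C : Set (Fin D.n))
    (ρ : Fin D.n → G) (h : D.IsCol ρ) (hC : ∀ c ∈ C, ρ c = 1) :
    ∃ F : PresentedGroup (sublinkRelators D C) →* G,
      ∀ w, F (PresentedGroup.mk _ w) = FreeGroup.lift ρ w := by
  refine ⟨PresentedGroup.toGroup (f := ρ) ?_, ?_⟩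
  · rintro r (⟨a, rfl⟩ | ⟨c, hc, rfl⟩)
    · exact (D.lift_wirtinger ρ a).2 (h a)
    · rw [FreeGroup.lift_apply_of]; exact hC c hc
  · intro w
    rfl

theorem col_of_hom {G : Type*} [Group G] (D : Diagram) (R : Set (FreeGroup (Fin D.n)))
    (hR : Set.range D.wirtinger ⊆ R) (F : PresentedGroup R →* G) :
    D.IsCol (fun a => F (PresentedGroup.mk R (FreeGroup.of a))) ∧
      ∀ w, FreeGroup.lift (fun a => F (PresentedGroup.mk R (FreeGroup.of a))) w =
        F (PresentedGroup.mk R w) := by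
  have h2 : ∀ w, FreeGroup.lift (fun a => F (PresentedGroup.mk R (FreeGroup.of a))) w =
      F (PresentedGroup.mk R w) := by
    intro w
    have : FreeGroup.lift (fun a => F (PresentedGroup.mk R (FreeGroup.of a))) =
        F.comp (PresentedGroup.mk R) := by
      ext a
      simp
    rw [this]
    rfl
  refine ⟨fun a => ?_, h2⟩
  refine (D.lift_wirtinger (fun a => F (PresentedGroup.mk R (FreeGroup.of a))) a).1 ?_
  rw [h2]
  have : PresentedGroup.mk R (D.wirtinger a) = 1 := PresentedGroup.one_of_mem (hR ⟨a, rfl⟩)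
  rw [this, map_one]

/-- An assignment for the sublink `K ∪ E` of `D` gives one for the pattern `P`, with the same
values on the meridians and longitudes of `K`, `E`. -/
theorem SameSystem.down {G : Type*} [Group G] {D : Diagram} {C : Set (Fin D.n)}
    {k e : Fin D.n} {P : Diagram} {k' e' : Fin P.n} (hS : SameSystem D C k e P k' e')
    (ρ : Fin D.n → G) (h : D.IsCol ρ) (hC : ∀ c ∈ C, ρ c = 1) :
    ∃ ρ' : Fin P.n → G, P.IsCol ρ' ∧ ρ' k' = ρ k ∧ P.lonVal ρ' k' = D.lonVal ρ k ∧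
      ρ' e' = ρ e ∧ P.lonVal ρ' e' = D.lonVal ρ e := by
  obtain ⟨θ, ⟨t1, t2⟩, t3, t4⟩ := hS
  obtain ⟨F, hF⟩ := exists_hom_of_sublink D C ρ h hC
  obtain ⟨F', hF'⟩ : ∃ F' : PresentedGroup (sublinkRelators P ∅) →* G, ∀ x : LinkGroup P ∅,
      F' x = F (θ.symm x) := by
    let Fc : LinkGroup D C →* G := F
    exact ⟨(Fc.comp θ.symm.toMonoidHom : LinkGroup P ∅ →* G), fun _ => rfl⟩
  obtain ⟨h1, h2⟩ := col_of_hom P (sublinkRelators P ∅) (fun _ hx => Or.inl hx) F'
  have key : ∀ (w : FreeGroup (Fin D.n)) (w' : FreeGroup (Fin P.n)),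
      θ (elem D C w) = elem P ∅ w' → F' (PresentedGroup.mk _ w') = FreeGroup.lift ρ w := by
    intro w w' hw
    have e1 : F' (PresentedGroup.mk _ w') = F (θ.symm (elem P ∅ w')) := hF' (elem P ∅ w')
    rw [e1, ← hw, MulEquiv.symm_apply_apply]
    exact hF w
  refine ⟨_, h1, ?_, ?_, ?_, ?_⟩
  · have := key _ _ t1
    rw [FreeGroup.lift_apply_of] at this
    exact this
  · rw [← Diagram.lift_longitude, h2, key _ _ t2, Diagram.lift_longitude]
  · have := key _ _ t3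
    rw [FreeGroup.lift_apply_of] at this
    exact this
  · rw [← Diagram.lift_longitude, h2, key _ _ t4, Diagram.lift_longitude]

theorem SameSystem.up {G : Type*} [Group G] {D : Diagram} {C : Set (Fin D.n)}
    {k e : Fin D.n} {P : Diagram} {k' e' : Fin P.n} (hS : SameSystem D C k e P k' e')
    (ρ' : Fin P.n → G) (h : P.IsCol ρ') :
    ∃ ρ : Fin D.n → G, D.IsCol ρ ∧ (∀ c ∈ C, ρ c = 1) ∧ ρ k = ρ' k' ∧
      D.lonVal ρ k = P.lonVal ρ' k' ∧ ρ e = ρ' e' ∧ D.lonVal ρ e = P.lonVal ρ' e' := by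
  obtain ⟨θ, ⟨t1, t2⟩, t3, t4⟩ := hS
  obtain ⟨F, hF⟩ := exists_hom_of_sublink P ∅ ρ' h (fun _ hc => hc.elim)
  obtain ⟨F', hF'⟩ : ∃ F' : PresentedGroup (sublinkRelators D C) →* G, ∀ x : LinkGroup D C,
      F' x = F (θ x) := by
    let Fc : LinkGroup P ∅ →* G := F
    exact ⟨(Fc.comp θ.toMonoidHom : LinkGroup D C →* G), fun _ => rfl⟩
  obtain ⟨h1, h2⟩ := col_of_hom D (sublinkRelators D C) (fun x hx => Or.inl hx) F'
  have key : ∀ (w : FreeGroup (Fin D.n)) (w' : FreeGroup (Fin P.n)),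
      θ (elem D C w) = elem P ∅ w' → F' (PresentedGroup.mk _ w) = FreeGroup.lift ρ' w' := by
    intro w w' hw
    have e1 : F' (PresentedGroup.mk _ w) = F (θ (elem D C w)) := hF' (elem D C w)
    rw [e1, hw]
    exact hF w'
  refine ⟨_, h1, ?_, ?_, ?_, ?_, ?_⟩
  · intro c hc
    change F' (PresentedGroup.mk _ (FreeGroup.of c)) = _
    have : PresentedGroup.mk (sublinkRelators D C) (FreeGroup.of c) = 1 :=
      PresentedGroup.one_of_mem (Or.inr ⟨c, hc, rfl⟩)
    rw [this, map_one]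
  · have := key _ _ t1
    rw [FreeGroup.lift_apply_of] at this
    exact this
  · rw [← Diagram.lift_longitude, h2, key _ _ t2, Diagram.lift_longitude]
  · have := key _ _ t3
    rw [FreeGroup.lift_apply_of] at this
    exact this
  · rw [← Diagram.lift_longitude, h2, key _ _ t4, Diagram.lift_longitude]

theorem zpow_of_dvd {G : Type*} [Group G] {N : ℕ} (hN : ∀ g : G, g ^ N = 1) (g : G) {m : ℤ}
    (h : (N : ℤ) ∣ m) : g ^ m = 1 := by
  obtain ⟨q, rfl⟩ := h
  rw [zpow_mul, zpow_natCast, hN, one_zpow]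

theorem zpow_congr {G : Type*} [Group G] {N : ℕ} (hN : ∀ g : G, g ^ N = 1) (g : G) {m n : ℤ}
    (h : (N : ℤ) ∣ m - n) : g ^ m = g ^ n := by
  have : g ^ (m - n) = 1 := zpow_of_dvd hN g h
  rw [zpow_sub, mul_inv_eq_one] at this
  exact this

/-- The general criterion: if, for homomorphisms to a finite group `G` of exponent dividing `N`,
the slope `-2` on `K` forces `μ ^ 2 = 1` for the pattern `P` with any companion, and the slope `2`
does not, then the slopes `2` and `-2` are not cosmetic for all patterns obtained from `P` by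
twisting `N`-fold. -/
theorem general {G : Type} [Group G] [Finite G] {N : ℕ} (hN : ∀ g : G, g ^ N = 1)
    (P : Diagram) (k' e' : Fin P.n)
    (hneg : ∀ ρ : Fin P.n → G, P.IsCol ρ → (P.lonVal ρ e' = 1 → ρ e' = 1) →
      ρ k' * ρ k' = P.lonVal ρ k' → ρ k' * ρ k' = 1)
    (ρ₀ : Fin P.n → G) (h₀ : P.IsCol ρ₀) (hk : ρ₀ k' * ρ₀ k' * P.lonVal ρ₀ k' = 1)
    (hne : ρ₀ k' * ρ₀ k' ≠ 1) (f : ℤ) (he : ρ₀ e' = P.lonVal ρ₀ e' ^ f)
    (D J : Diagram) (hJ : J.IsKnot) (C : Set (Fin D.n)) (a b : Fin D.n → ℤ)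
    (k e : Fin D.n) (j : Fin J.n) (s p q : ℤ) (hS : SameSystem D C k e P k' e')
    (ha : ∀ c ∈ C, (N : ℤ) ∣ a c - 1) (hb : ∀ c ∈ C, (N : ℤ) ∣ b c) (hs : (N : ℤ) ∣ s)
    (hp : (N : ℤ) ∣ p - 2) (hq : (N : ℤ) ∣ q + 2) :
    IsEmpty (PresentedGroup (twistedRelators D J C a b k e j s f p) ≃*
      PresentedGroup (twistedRelators D J C a b k e j s f q)) := by
  -- the slope `q` forces `μ ^ 2 = 1`
  have key : ∀ σ : Fin D.n ⊕ Fin J.n → G,
      (∀ r ∈ twistedRelators D J C a b k e j s f q, FreeGroup.lift σ r = 1) →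
      σ (Sum.inl k) * σ (Sum.inl k) = 1 := by
    intro σ hσ
    rw [sat_twisted_iff] at hσ
    obtain ⟨g1, g2, gc, g3, g4, g5⟩ := hσ
    have hC : ∀ c ∈ C, (σ ∘ Sum.inl) c = 1 := by
      intro c hc
      have h := gc c hc
      rw [zpow_of_dvd hN _ (hb c hc), mul_one, zpow_congr hN _ (n := 1) (ha c hc), zpow_one] at h
      exact h
    obtain ⟨ρ', c1, c2, c3, c4, c5⟩ := hS.down (σ ∘ Sum.inl) g1 hC
    have c2' : ρ' k' = σ (Sum.inl k) := c2
    have c4' : ρ' e' = σ (Sum.inl e) := c4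
    rw [zpow_of_dvd hN _ hs, mul_one] at g3
    rw [zpow_congr hN _ (n := -2) (by simpa using hq)] at g5
    have h := hneg ρ' c1 ?_ ?_
    · rw [c2'] at h; exact h
    · intro h1
      rw [c5, g3] at h1
      have hall : ∀ b, (σ ∘ Sum.inr) b = 1 := fun b =>
        Diagram.IsCol.eq_one J g2 (hJ j b) h1
      rw [c4', g4, Diagram.lonVal_of_one J hall, h1]
      simp
    · rw [c3, c2']
      have h7 : σ (Sum.inl k) * σ (Sum.inl k) *
          (σ (Sum.inl k) ^ (-2 : ℤ) * D.lonVal (σ ∘ Sum.inl) k) =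
          D.lonVal (σ ∘ Sum.inl) k := by group
      rw [← h7, g5, mul_one]
  obtain ⟨ρ, u1, u2, u3, u4, u5, u6⟩ := hS.up ρ₀ h₀
  refine not_iso_of_ssubset (G := G) _ _ ?_
    (Sum.elim ρ (fun _ => P.lonVal ρ₀ e')) ?_ ?_
  · intro σ hσ
    have hsq := key σ hσ
    rw [sat_twisted_iff] at hσ ⊢
    obtain ⟨g1, g2, gc, g3, g4, g5⟩ := hσ
    refine ⟨g1, g2, gc, g3, g4, ?_⟩
    rw [zpow_congr hN _ (n := -2) (by simpa using hq)] at g5
    rw [zpow_congr hN _ (n := 2) hp]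
    have e1 : σ (Sum.inl k) ^ (2 : ℤ) = 1 := by rw [zpow_two, hsq]
    have e2 : σ (Sum.inl k) ^ (-2 : ℤ) = 1 := by rw [zpow_neg, e1, inv_one]
    rw [e1]
    rw [e2] at g5
    exact g5
  · rw [sat_twisted_iff]
    refine ⟨u1, Diagram.isCol_const J _, ?_, ?_, ?_, ?_⟩
    · intro c hc
      change ρ c ^ a c * D.lonVal ρ c ^ b c = 1
      rw [zpow_of_dvd hN _ (hb c hc), mul_one, u2 c hc, one_zpow]
    · change D.lonVal ρ e * ρ e ^ s = P.lonVal ρ₀ e'
      rw [zpow_of_dvd hN _ hs, mul_one, u6]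
    · change ρ e = (P.lonVal ρ₀ e') ^ f * J.lonVal (fun _ => P.lonVal ρ₀ e') j
      rw [Diagram.lonVal_const J hJ, mul_one, u5, he]
    · change ρ k ^ p * D.lonVal ρ k = 1
      rw [zpow_congr hN _ (n := 2) hp, zpow_two, u3, u4]
      exact hk
  · intro h
    have h1 := key _ h
    change ρ k * ρ k = 1 at h1
    rw [u3] at h1
    exact hne h1

end Vale.Agent.P258
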