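import Vale.Agent.P258.H78.Transfer

set_option linter.all false

/-!
The two patterns: congruence modulo 30 and modulo 126.
-/

namespace Vale.Agent.P258

def pow30N (x : ℕ) : ℕ :=
  mulN (mulN (mulN (mulN x x) (mulN (mulN x x) (mulN x x)))
    (mulN (mulN (mulN x x) (mulN x x)) (mulN (mulN x x) (mulN x x))))
    (mulN (mulN (mulN (mulN x x) (mulN x x)) (mulN (mulN x x) (mulN x x)))
      (mulN (mulN (mulN x x) (mulN x x)) (mulN (mulN x x) (mulN x x))))

theorem chk_pow30 : ((List.range 60).all fun a => Nat.beq (pow30N a) 0) = true := by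
  decide +kernel

theorem altFive_pow (g : AltFive) : g ^ 30 = 1 := by
  have h : g ^ 30 = (((g * g) * ((g * g) * (g * g))) *
      (((g * g) * (g * g)) * ((g * g) * (g * g)))) *
      ((((g * g) * (g * g)) * ((g * g) * (g * g))) *
        (((g * g) * (g * g)) * ((g * g) * (g * g)))) := by
    simp only [pow_succ, pow_zero, one_mul, mul_assoc]
  rw [h]
  apply AltFive.ext'
  exact beq_eq (all_range chk_pow30 g.lt)

namespace Second

def pow126N (x : ℕ) : ℕ :=
  force (mulN x x) fun u2 => force (mulN u2 u2) fun u4 => force (mulN u4 u4) fun u8 =>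
    force (mulN u8 u8) fun u16 => force (mulN u16 u16) fun u32 => force (mulN u32 u32) fun u64 =>
      mulN (mulN (mulN (mulN (mulN u64 u32) u16) u8) u4) u2

theorem chk_pow126 : ∀ a b c d : Fin 8,
    Nat.xor (fmN a.val d.val) (fmN b.val c.val) = 1 →
    pow126N (cd a.val b.val c.val d.val) = 513 := by
  decide +kernel

theorem G_pow (g : G) : g ^ 126 = 1 := by
  have h : g ^ 126 = g ^ 64 * g ^ 32 * g ^ 16 * g ^ 8 * g ^ 4 * g ^ 2 := by
    simp only [← pow_add]
  have h2 : g ^ 2 = g * g := pow_two g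
  have h4 : g ^ 4 = g ^ 2 * g ^ 2 := by simp only [← pow_add]
  have h8 : g ^ 8 = g ^ 4 * g ^ 4 := by simp only [← pow_add]
  have h16 : g ^ 16 = g ^ 8 * g ^ 8 := by simp only [← pow_add]
  have h32 : g ^ 32 = g ^ 16 * g ^ 16 := by simp only [← pow_add]
  have h64 : g ^ 64 = g ^ 32 * g ^ 32 := by simp only [← pow_add]
  apply code_inj
  have h1 : code (g ^ 126) = pow126N (code g) := by
    rw [h]
    unfold pow126N
    simp only [force_eq]
    rw [code_mul, code_mul, code_mul, code_mul, code_mul, h64, code_mul, h32, code_mul, h16,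
      code_mul, h8, code_mul, h4, code_mul, h2, code_mul]
  rw [h1, code_one]
  exact chk_pow126 (g.1 0 0).toFin (g.1 0 1).toFin (g.1 1 0).toFin (g.1 1 1).toFin (det_eq g)

end Second

theorem first (D J : Diagram) (hJ : J.IsKnot) (C : Set (Fin D.n)) (a b : Fin D.n → ℤ)
    (k e : Fin D.n) (j : Fin J.n) (s f p q : ℤ) (hS : SameSystem D C k e pattern patternK patternE)
    (ha : ∀ c ∈ C, (30 : ℤ) ∣ a c - 1) (hb : ∀ c ∈ C, (30 : ℤ) ∣ b c) (hs : (30 : ℤ) ∣ s)
    (hf : f % 3 = 2) (hp : (30 : ℤ) ∣ p - 2) (hq : (30 : ℤ) ∣ q + 2) :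
    IsEmpty (PresentedGroup (twistedRelators D J C a b k e j s f p) ≃*
      PresentedGroup (twistedRelators D J C a b k e j s f q)) := by
  refine general (G := AltFive) (N := 30) altFive_pow pattern patternK patternE ?_ baseCol
    baseCol_isCol baseCol_K baseCol_sq f ?_ D J hJ C a b k e j s p q hS
    (by exact_mod_cast ha) (by exact_mod_cast hb) (by exact_mod_cast hs) (by exact_mod_cast hp)
    (by exact_mod_cast hq)
  · intro ρ h1 h2 h3
    exact keyR ρ h1 h2 h3
  · rw [baseCol_E, zpow_mod_three _ baseCol_cube f hf]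
    exact baseCol_19

theorem second (D J : Diagram) (hJ : J.IsKnot) (C : Set (Fin D.n)) (a b : Fin D.n → ℤ)
    (k e : Fin D.n) (j : Fin J.n) (s f p q : ℤ)
    (hS : SameSystem D C k e patternB patternBK patternBE)
    (ha : ∀ c ∈ C, (126 : ℤ) ∣ a c - 1) (hb : ∀ c ∈ C, (126 : ℤ) ∣ b c) (hs : (126 : ℤ) ∣ s)
    (hf : f % 7 = 0) (hp : (126 : ℤ) ∣ p - 2) (hq : (126 : ℤ) ∣ q + 2) :
    IsEmpty (PresentedGroup (twistedRelators D J C a b k e j s f p) ≃*
      PresentedGroup (twistedRelators D J C a b k e j s f q)) := by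
  refine general (G := Second.G) (N := 126) Second.G_pow patternB patternBK patternBE ?_
    Second.baseCol Second.baseCol_isCol Second.baseCol_K Second.baseCol_sq f ?_
    D J hJ C a b k e j s p q hS
    (by exact_mod_cast ha) (by exact_mod_cast hb) (by exact_mod_cast hs) (by exact_mod_cast hp)
    (by exact_mod_cast hq)
  · intro ρ h1 h2 h3
    exact Second.keyR ρ h1 h2 h3
  · rw [Second.zpow_mod_seven _ Second.baseCol_E f hf]
    exact Second.baseCol_31

/-- Different numbers of homomorphisms to a finite group of exponent dividing `N` for two slopes on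
a knot persist, for all slopes congruent to them modulo `N`, under congruence of knots modulo
`N`. -/
theorem transfer {G : Type} [Group G] {N : ℕ} (hN : ∀ g : G, g ^ N = 1)
    (P : Diagram) (k' : Fin P.n) (p₀ q₀ p₁ q₁ : ℤ)
    (hne : Nat.card (PresentedGroup (surgeryRelators P ∅ 1 0 k' p₀ q₀) →* G) ≠
      Nat.card (PresentedGroup (surgeryRelators P ∅ 1 0 k' p₁ q₁) →* G))
    (D : Diagram) (C : Set (Fin D.n)) (a b : Fin D.n → ℤ) (k : Fin D.n)
    (hS : SameSystem D C k k P k' k')
    (ha : ∀ c ∈ C, (N : ℤ) ∣ a c - 1) (hb : ∀ c ∈ C, (N : ℤ) ∣ b c) (p q p' q' : ℤ)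
    (hp : (N : ℤ) ∣ p - p₀) (hq : (N : ℤ) ∣ q - q₀) (hp' : (N : ℤ) ∣ p' - p₁)
    (hq' : (N : ℤ) ∣ q' - q₁) :
    IsEmpty (PresentedGroup (surgeryRelators D C a b k p q) ≃*
      PresentedGroup (surgeryRelators D C a b k p' q')) := by
  constructor
  intro φ
  apply hne
  rw [← card_hom_congr hN D C a b k P k' hS ha hb p q p₀ q₀ hp hq,
    ← card_hom_congr hN D C a b k P k' hS ha hb p' q' p₁ q₁ hp' hq']
  exact Nat.card_congr (MulEquiv.monoidHomCongrLeftEquiv φ)

end Vale.Agent.P258
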