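import Vale.Agent.P258.H78.General

set_option linter.all false

/-!
The number of homomorphisms to a finite group of exponent dividing `N`, for surgeries on knots that
are congruent modulo `N`.
-/

namespace Vale.Agent.P258

theorem lift_comp_mk {α : Type*} {G : Type*} [Group G] (R : Set (FreeGroup α))
    (F : PresentedGroup R →* G) (w : FreeGroup α) :
    FreeGroup.lift (fun i => F (PresentedGroup.mk R (FreeGroup.of i))) w =
      F (PresentedGroup.mk R w) := by
  have : FreeGroup.lift (fun i => F (PresentedGroup.mk R (FreeGroup.of i))) =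
      F.comp (PresentedGroup.mk R) := by
    ext i
    simp
  rw [this]
  rfl

theorem exists_toGroup {α : Type*} {G : Type*} [Group G] (R : Set (FreeGroup α)) (ρ : α → G)
    (h : ∀ r ∈ R, FreeGroup.lift ρ r = 1) :
    ∃ F : PresentedGroup R →* G, ∀ w, F (PresentedGroup.mk R w) = FreeGroup.lift ρ w :=
  ⟨PresentedGroup.toGroup h, fun _ => rfl⟩

theorem hom_ext {α : Type*} {G : Type*} [Group G] {R : Set (FreeGroup α)}
    {F F' : PresentedGroup R →* G}
    (h : ∀ w, F (PresentedGroup.mk R w) = F' (PresentedGroup.mk R w)) : F = F' := by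
  ext i
  exact h (FreeGroup.of i)

/-- Homomorphisms of a group with more relators are homomorphisms that kill these relators. -/
theorem card_hom_union {α : Type*} {G : Type*} [Group G] (R S : Set (FreeGroup α)) :
    Nat.card (PresentedGroup (R ∪ S) →* G) =
      Nat.card {F : PresentedGroup R →* G // ∀ w ∈ S, F (PresentedGroup.mk R w) = 1} := by
  have h1 : ∀ F : PresentedGroup (R ∪ S) →* G, ∃ F' : PresentedGroup R →* G,
      ∀ w, F' (PresentedGroup.mk R w) = F (PresentedGroup.mk (R ∪ S) w) := by
    intro F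
    obtain ⟨F', hF'⟩ := exists_toGroup R
      (fun i => F (PresentedGroup.mk (R ∪ S) (FreeGroup.of i))) (by
        intro r hr
        rw [lift_comp_mk]
        have : PresentedGroup.mk (R ∪ S) r = 1 := PresentedGroup.one_of_mem (Or.inl hr)
        rw [this, map_one])
    exact ⟨F', fun w => by rw [hF', lift_comp_mk]⟩
  choose φ hφ using h1
  refine Nat.card_eq_of_bijective (fun F => ⟨φ F, fun w hw => ?_⟩) ⟨?_, ?_⟩
  · rw [hφ]
    have : PresentedGroup.mk (R ∪ S) w = 1 := PresentedGroup.one_of_mem (Or.inr hw)
    rw [this, map_one]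
  · intro F F' h
    have h2 : φ F = φ F' := congrArg Subtype.val h
    apply hom_ext
    intro w
    rw [← hφ, ← hφ, h2]
  · rintro ⟨F, hF⟩
    obtain ⟨F', hF'⟩ := exists_toGroup (R ∪ S)
      (fun i => F (PresentedGroup.mk R (FreeGroup.of i))) (by
        rintro r (hr | hr)
        · rw [lift_comp_mk]
          have : PresentedGroup.mk R r = 1 := PresentedGroup.one_of_mem hr
          rw [this, map_one]
        · rw [lift_comp_mk]
          exact hF r hr)
    refine ⟨F', Subtype.ext ?_⟩
    apply hom_ext
    intro w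
    change φ F' (PresentedGroup.mk R w) = F (PresentedGroup.mk R w)
    rw [hφ, hF', lift_comp_mk]

/-- The number of homomorphisms of the group of a surgery on a knot to a finite group `G` of
exponent dividing `N` does not change when the knot is twisted `N`-fold and the coefficients of
the slope are changed by multiples of `N`. -/
theorem card_hom_congr {G : Type} [Group G] {N : ℕ} (hN : ∀ g : G, g ^ N = 1)
    (D : Diagram) (C : Set (Fin D.n)) (a b : Fin D.n → ℤ) (k : Fin D.n)
    (P : Diagram) (k' : Fin P.n) (hS : SameSystem D C k k P k' k')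
    (ha : ∀ c ∈ C, (N : ℤ) ∣ a c - 1) (hb : ∀ c ∈ C, (N : ℤ) ∣ b c) (p q p' q' : ℤ)
    (hp : (N : ℤ) ∣ p - p') (hq : (N : ℤ) ∣ q - q') :
    Nat.card (PresentedGroup (surgeryRelators D C a b k p q) →* G) =
      Nat.card (PresentedGroup (surgeryRelators P ∅ 1 0 k' p' q') →* G) := by
  obtain ⟨θ, ⟨t1, t2⟩, -, -⟩ := hS
  -- the left-hand side
  have e1 : surgeryRelators D C a b k p q = Set.range D.wirtinger ∪
      ((fun c => FreeGroup.of c ^ a c * D.longitude c ^ b c) '' C ∪
        {FreeGroup.of k ^ p * D.longitude k ^ q}) := by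
    unfold surgeryRelators
    rw [Set.union_assoc]
  have e2 : sublinkRelators D C ∪ {FreeGroup.of k ^ p' * D.longitude k ^ q'} =
      Set.range D.wirtinger ∪
        (FreeGroup.of '' C ∪ {FreeGroup.of k ^ p' * D.longitude k ^ q'}) := by
    unfold sublinkRelators
    rw [Set.union_assoc]
  have e3 : surgeryRelators P ∅ 1 0 k' p' q' = sublinkRelators P ∅ ∪
      {FreeGroup.of k' ^ p' * P.longitude k' ^ q'} := by
    unfold surgeryRelators sublinkRelators
    rw [Set.image_empty, Set.image_empty]
  have hcond : ∀ F : PresentedGroup (Set.range D.wirtinger) →* G,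
      (∀ w ∈ (fun c => FreeGroup.of c ^ a c * D.longitude c ^ b c) '' C ∪
        {FreeGroup.of k ^ p * D.longitude k ^ q}, F (PresentedGroup.mk _ w) = 1) ↔
      ∀ w ∈ FreeGroup.of '' C ∪ {FreeGroup.of k ^ p' * D.longitude k ^ q'},
        F (PresentedGroup.mk _ w) = 1 := by
    intro F
    have hc : ∀ c ∈ C, F (PresentedGroup.mk _ (FreeGroup.of c ^ a c * D.longitude c ^ b c)) =
        F (PresentedGroup.mk _ (FreeGroup.of c)) := by
      intro c hc
      rw [map_mul, map_mul, map_zpow, map_zpow, map_zpow, map_zpow,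
        zpow_of_dvd hN _ (hb c hc), mul_one, zpow_congr hN _ (n := 1) (ha c hc), zpow_one]
    have hk : F (PresentedGroup.mk _ (FreeGroup.of k ^ p * D.longitude k ^ q)) =
        F (PresentedGroup.mk _ (FreeGroup.of k ^ p' * D.longitude k ^ q')) := by
      rw [map_mul, map_mul, map_zpow, map_zpow, map_zpow, map_zpow,
        zpow_congr hN _ hp, zpow_congr hN _ hq, map_mul, map_mul, map_zpow, map_zpow, map_zpow,
        map_zpow]
    constructor
    · rintro h w (⟨c, hcC, rfl⟩ | hw)
      · rw [← hc c hcC]
        exact h _ (Or.inl ⟨c, hcC, rfl⟩)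
      · rw [Set.mem_singleton_iff] at hw
        rw [hw, ← hk]
        exact h _ (Or.inr rfl)
    · rintro h w (⟨c, hcC, rfl⟩ | hw)
      · simp only
        rw [hc c hcC]
        exact h _ (Or.inl ⟨c, hcC, rfl⟩)
      · rw [Set.mem_singleton_iff] at hw
        rw [hw, hk]
        exact h _ (Or.inr rfl)
  rw [e1, card_hom_union, Nat.card_congr (Equiv.subtypeEquivRight hcond), ← card_hom_union,
    ← e2, card_hom_union, e3, card_hom_union]
  let Θ : PresentedGroup (sublinkRelators D C) ≃* PresentedGroup (sublinkRelators P ∅) := θ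
  have T1 : Θ (PresentedGroup.mk _ (FreeGroup.of k)) =
      PresentedGroup.mk _ (FreeGroup.of k') := t1
  have T2 : Θ (PresentedGroup.mk _ (D.longitude k)) =
      PresentedGroup.mk _ (P.longitude k') := t2
  refine Nat.card_congr (Equiv.subtypeEquiv (MulEquiv.monoidHomCongrLeftEquiv Θ) ?_)
  intro F
  have hval : (MulEquiv.monoidHomCongrLeftEquiv Θ F)
      (PresentedGroup.mk _ (FreeGroup.of k' ^ p' * P.longitude k' ^ q')) =
      F (PresentedGroup.mk _ (FreeGroup.of k ^ p' * D.longitude k ^ q')) := by
    have h2 : PresentedGroup.mk (sublinkRelators P ∅)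
        (FreeGroup.of k' ^ p' * P.longitude k' ^ q') =
        Θ (PresentedGroup.mk _ (FreeGroup.of k ^ p' * D.longitude k ^ q')) := by
      rw [map_mul, map_mul, map_mul, map_zpow, map_zpow, map_zpow, map_zpow, map_zpow, map_zpow,
        T1, T2]
    rw [h2]
    change F (Θ.symm (Θ _)) = _
    rw [MulEquiv.symm_apply_apply]
  constructor
  · intro h w hw
    rw [Set.mem_singleton_iff] at hw
    rw [hw, hval]
    exact h _ rfl
  · intro h w hw
    rw [Set.mem_singleton_iff] at hw
    rw [hw, ← hval]
    exact h _ rfl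

end Vale.Agent.P258
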